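import Crest.Agent.R175.Apt.Geo
import Crest.Agent.R175.Dir.Main
import Crest.Agent.R175.Morse.Link

/-!
# R175/Apt/Api: apartments of the folded model (owner helper66)

For `x` in `D^{≤ m}` the apartment `A(x)` has the chambers `(lf w)⁻¹ • x`, `w ∈ W_U`.
-/

set_option autoImplicit false
set_option linter.unusedSectionVars false

open Finset Crest.GroupTheory Crest.Agent.R61 Crest.Agent.R175.Cox

noncomputable section

namespace Crest.Agent.R175.P.Apt

variable {S : Type} [Fintype S] [DecidableEq S] {M : CoxeterMatrix S} (Q : Mdl M)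

/-- heights of the vertices of the apartment `A(x)` above the thresholds -/
def fA (x : Q.X) (m : ℤ) (c : S → ℝ) (w : M.Group) (u : S) : ℝ := Q.v ((lf M w)⁻¹ • x) m u - c u

theorem lf_one : lf M 1 = 1 := lft_one _ (braid_gen M)

theorem lf_mul_sr {w : M.Group} {s : S} (h : ln M w < ln M (w * sr M s)) : lf M (w * sr M s) = lf M w * σ M s :=
  lft_mul_simple _ (braid_gen M) h

theorem lf_sr_mul {w : M.Group} {s : S} (h : ln M w < ln M (sr M s * w)) : lf M (sr M s * w) = σ M s * lf M w :=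
  lft_simple_mul _ (braid_gen M) h

theorem lf_sr (s : S) : lf M (sr M s) = σ M s := lft_simple _ (braid_gen M) s

theorem lf_mem_AP {U : Finset S} {w : M.Group} (hw : w ∈ WU M U) : lf M w ∈ AP M U := pos_mem_AP (lf_mem_pos hw)

theorem mul_sr_sr (w : M.Group) (s : S) : w * sr M s * sr M s = w := by rw [mul_assoc, sr_mul_sr, mul_one]

theorem sr_sr_mul (w : M.Group) (s : S) : sr M s * (sr M s * w) = w := by rw [← mul_assoc, sr_mul_sr, one_mul]

/-- adjacent chambers differ by `σ s` or its inverse -/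
theorem lf_adj (w : M.Group) (s : S) :
    (lf M (w * sr M s))⁻¹ * lf M w = (σ M s)⁻¹ ∨ (lf M (w * sr M s))⁻¹ * lf M w = σ M s := by
  rcases up_or_down' (cx M) w s with h | h
  · exact Or.inl (by rw [lf_mul_sr h, mul_inv_rev, inv_mul_cancel_right])
  · refine Or.inr ?_
    have := lf_mul_sr (w := w * sr M s) (s := s) (by rwa [mul_sr_sr])
    rw [mul_sr_sr] at this
    rw [this, inv_mul_cancel_left]

/-- chambers in the same coset of `W_I` differ by an element of `A_I` -/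
theorem lf_par {I : Finset S} (w : M.Group) {v : M.Group} (hv : v ∈ WU M I) : (lf M (w * v))⁻¹ * lf M w ∈ AP M I := by
  refine par_induction_right (cx M) (p := fun v => (lf M (w * v))⁻¹ * lf M w ∈ AP M I) hv
    (by rw [mul_one, inv_mul_cancel]; exact one_mem _) fun v _ i hi _ ih => ?_
  have h1 : (lf M (w * v * sr M i))⁻¹ * lf M (w * v) ∈ AP M I := by
    rcases lf_adj (w * v) i with h | h <;> rw [h]
    · exact inv_mem (σ_mem_AP hi)
    · exact σ_mem_AP hi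
  have h2 := mul_mem h1 ih
  rw [← mul_assoc]
  convert h2 using 1
  group

theorem fA_one (x : Q.X) (m : ℤ) (c : S → ℝ) (u : S) : fA Q x m c 1 u = Q.v x m u - c u := by
  rw [fA, lf_one, inv_one, one_smul]

theorem fA_sr (x : Q.X) (m : ℤ) (c : S → ℝ) (s u : S) : fA Q x m c (sr M s) u = Q.v ((σ M s)⁻¹ • x) m u - c u := by
  rw [fA, lf_sr]

variable {Q}

theorem le_lf {U : Finset S} {m : ℤ} {x : Q.X} (hx : Q.Le U m x) {w : M.Group} (hw : w ∈ WU M U) :
    Q.Le U m ((lf M w)⁻¹ • x) := le_down Q (lf_mem_pos hw) hx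

/-- **convexity** -/
theorem cvx_fA {U : Finset S} {m : ℤ} {x : Q.X} {c : S → ℝ} (hx : Q.Le U m x) (hc : Q.Adm U x m c) :
    Cvx M U (fA Q x m c) := by
  have inv : ∀ w, ∀ s ∈ U, ∀ u, u ≠ s → fA Q x m c (w * sr M s) u = fA Q x m c w u := fun w s hs u hu => by
    have e : (lf M (w * sr M s))⁻¹ • x = ((lf M (w * sr M s))⁻¹ * lf M w) • (lf M w)⁻¹ • x := by
      rw [mul_smul, smul_inv_smul]
    rw [fA, fA, e]
    rcases lf_adj w s with h | h <;> rw [h]
    · rw [Q.v_inv_smul hu]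
    · rw [Q.loc s u hu]
  have up : ∀ w ∈ WU M U, ∀ s ∈ U, ln M w < ln M (w * sr M s) →
      ∑ u ∈ U, adj M s u * fA Q x m c w u ≤ fA Q x m c w s + fA Q x m c (w * sr M s) s := fun w hw s hs h => by
    have h1 := (Q.down s m _ ((le_lf hx hw).mono (singleton_subset_iff.2 hs) le_rfl)).2
    have h2 := (hc.smul (inv_mem (lf_mem_AP hw))) s hs
    rw [Car, Mdl.b] at h2
    rw [← Finset.sum_add_sum_compl U] at h1
    simp only [fA, mul_sub, Finset.sum_sub_distrib, lf_mul_sr h, mul_inv_rev, mul_smul]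
    linarith
  refine ⟨fun w _ => inv w, fun w hw s hs => ?_⟩
  rcases up_or_down' (cx M) w s with h | h
  · exact up w hw s hs h
  · have h1 := up (w * sr M s) (mul_mem hw (sr_mem hs)) s hs (by rwa [mul_sr_sr])
    rw [mul_sr_sr, add_comm] at h1
    refine le_of_eq_of_le (Finset.sum_congr rfl fun u _ => ?_) h1
    by_cases hu : u = s
    · rw [hu, adj_self, zero_mul, zero_mul]
    · rw [inv w s hs u hu]

variable (Q) in
/-- the chambers `w < t w` of `A(x)` are the chambers `t w` of `A(σ_t x)` -/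
theorem fA_up (x : Q.X) (m : ℤ) (c : S → ℝ) {t : S} {w : M.Group} (h : ln M w < ln M (sr M t * w)) (u : S) :
    fA Q (σ M t • x) m c (sr M t * w) u = fA Q x m c w u := by
  rw [fA, fA, lf_sr_mul h, mul_inv_rev, mul_smul, inv_smul_smul]

/-- **fold**: if `t` is allowed, reflecting a chamber to the upper side of the wall of `t` does not increase the heights -/
theorem fA_fold {U : Finset S} {m : ℤ} {x : Q.X} (c : S → ℝ) {t : S} (ht : t ∈ U) (hx : Q.Le U m (σ M t • x))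
    {w : M.Group} (hw : w ∈ WU M U) (h : ln M w < ln M (sr M t * w)) (u : S) :
    fA Q x m c w u ≤ fA Q x m c (sr M t * w) u := by
  rw [fA, fA, lf_sr_mul h, mul_inv_rev, mul_smul]
  exact sub_le_sub_right (Q.fold U t ht m x hx _ (lf_mem_pos hw) u) _

/-- a neutral move is a symmetry of the apartment -/
theorem fA_neutral {m : ℤ} {x : Q.X} (c : S → ℝ) {s : S} (h : σ M s • x = x) (w : M.Group) (u : S) :
    fA Q x m c (sr M s * w) u = fA Q x m c w u := by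
  rcases upl_or_downl (cx M) w s with h1 | h1
  · rw [← fA_up Q x m c h1, h]
  · have := fA_up Q x m c (t := s) (w := sr M s * w) (by rwa [sr_sr_mul]) u
    rw [sr_sr_mul, h] at this
    exact this.symm

theorem ell_up (U : Finset S) (x : Q.X) (m : ℤ) (c : S → ℝ) {t : S} {w : M.Group} (h : ln M w < ln M (sr M t * w))
    (y : V S) : ell M U (fA Q (σ M t • x) m c) (sr M t * w) (rep (cx M) (sr M t) y) = ell M U (fA Q x m c) w y := by
  simp only [ell, co_rep, fA_up Q x m c h]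

theorem phi_up {U : Finset S} (hU : FinT M U) {m : ℤ} {x : Q.X} {c : S → ℝ} {t : S} (ht : t ∈ U)
    (hx : Q.Le U m (σ M t • x)) (hc : Q.Adm U x m c) {y : V S} (hy : 0 ≤ form M (al t) y) :
    phi M U (fA Q (σ M t • x) m c) (rep (cx M) (sr M t) y) = phi M U (fA Q x m c) y := by
  obtain ⟨w, hw, h⟩ := exists_inCh_up hU ht hy
  rw [(cvx_fA (le_of_smul Q (σ_mem_pos ht) hx) hc).phi_eq hw,
    (cvx_fA hx (hc.smul (σ_mem_AP ht))).phi_eq (hw.rep (sr_mem ht)), ell_up U x m c h]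

theorem phi_fold {U : Finset S} (hU : FinT M U) {m : ℤ} {x : Q.X} {c : S → ℝ} {t : S} (ht : t ∈ U)
    (hx : Q.Le U m (σ M t • x)) (hc : Q.Adm U x m c) {y : V S} (hy : 0 ≤ form M (al t) y) :
    phi M U (fA Q x m c) y ≤ phi M U (fA Q x m c) (rep (cx M) (sr M t) y) := by
  obtain ⟨w, hw, h⟩ := exists_inCh_up hU ht hy
  have hf := cvx_fA (le_of_smul Q (σ_mem_pos ht) hx) hc
  rw [hf.phi_eq hw, hf.phi_eq (hw.rep (sr_mem ht))]
  simp only [ell, co_rep]
  exact Finset.sum_le_sum fun u hu => mul_le_mul_of_nonneg_right (fA_fold c ht hx hw.1 h u) (hw.2 u hu)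

theorem phi_neutral {U : Finset S} (hU : FinT M U) {m : ℤ} {x : Q.X} {c : S → ℝ} {s : S} (hs : s ∈ U)
    (hx : Q.Le U m x) (hc : Q.Adm U x m c) (h : σ M s • x = x) (y : V S) :
    phi M U (fA Q x m c) (rep (cx M) (sr M s) y) = phi M U (fA Q x m c) y := by
  obtain ⟨w, hw⟩ := exists_inCh hU y
  have hf := cvx_fA hx hc
  rw [hf.phi_eq hw, hf.phi_eq (hw.rep (sr_mem hs))]
  simp only [ell, co_rep, fA_neutral c h]

/-! ### vertices of the apartment `A(d • x)` as vertices of the Artin complex -/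

theorem vx_apt {U : Finset S} {m : ℤ} {x : Q.X} {d : ArtinGroup M} (hd : d ∈ AP M U) (hx : Q.Le U m (d • x))
    {w : M.Group} (hw : w ∈ WU M U) {u : S} (hu : u ∈ U) : Q.Vx U x m (u, (lf M w)⁻¹ * d) :=
  ⟨hu, mul_mem (inv_mem (lf_mem_AP hw)) hd, fun n hn => by
    rw [mul_smul]; exact (le_lf hx hw n hn u hu).2.1⟩

theorem v_apt (x : Q.X) (m : ℤ) (c : S → ℝ) (d : ArtinGroup M) (w : M.Group) (u : S) :
    Q.v (((lf M w)⁻¹ * d) • x) m u - c u = fA Q (d • x) m c w u := by rw [fA, mul_smul]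

theorem D_iff {U : Finset S} {m : ℤ} {x : Q.X} {c : S → ℝ} {d : ArtinGroup M} (hd : d ∈ AP M U) (hx : Q.Le U m (d • x))
    {w : M.Group} (hw : w ∈ WU M U) {u : S} (hu : u ∈ U) :
    Q.D U x m c (u, (lf M w)⁻¹ * d) ↔ fA Q (d • x) m c w u < 0 := by
  rw [← v_apt, sub_neg]
  exact ⟨fun h => h.2, fun h => ⟨vx_apt hd hx hw hu, h⟩⟩

theorem step_apt {U : Finset S} (d : ArtinGroup M) (w : M.Group) {u : S} {v : M.Group} (hv : v ∈ WU M (U.erase u)) :
    ((lf M (w * v))⁻¹ * d) * ((lf M w)⁻¹ * d)⁻¹ ∈ AP M (U.erase u) := by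
  convert lf_par w hv using 1
  group

/-- **`D ∩ A(d • x)` is connected** -/
theorem apt_conn {U : Finset S} (hU : FinT M U) {m : ℤ} {x : Q.X} {c : S → ℝ} (hc : Q.Adm U x m c) {d : ArtinGroup M}
    (hd : d ∈ AP M U) (hx : Q.Le U m (d • x)) {w w' : M.Group} (hw : w ∈ WU M U) (hw' : w' ∈ WU M U) {u u' : S}
    (h : Q.D U x m c (u, (lf M w)⁻¹ * d)) (h' : Q.D U x m c (u', (lf M w')⁻¹ * d)) :
    Conn M U (Q.D U x m c) (u, (lf M w)⁻¹ * d) (u', (lf M w')⁻¹ * d) := by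
  refine ((cvx_fA hx (hc.smul hd)).neg_conn hU
    (P := fun w₁ u₁ => u₁ ∈ U ∧ Conn M U (Q.D U x m c) (u, (lf M w)⁻¹ * d) (u₁, (lf M w₁)⁻¹ * d))
    (fun w₁ h1 s hs u₁ hu₁ h2 => ⟨h2.1, ?_⟩) (fun w₁ h1 u₁ hu₁ h2 => (D_iff hd hx h1 hu₁).1 (h2.2.mem h))
    (fun w₁ h1 u₁ hu₁ u₂ hu₂ h2 h3 => ⟨hu₂, h2.2.tail (h2.2.mem h) ((D_iff hd hx h1 hu₂).2 h3) (Or.inl rfl)⟩)
    hw hw' h.1.1 h'.1.1 ⟨h.1.1, Conn.refl _⟩ ((D_iff hd hx hw' h'.1.1).1 h')).2
  have h3 := step_apt (U := U) d w₁ (u := u₁) (sr_mem (mem_erase.2 ⟨hu₁.symm, hs⟩))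
  exact h2.2.tail (h2.2.mem h) ((h2.2.mem h).vertex h3) (Or.inr ⟨rfl, h3⟩)

/-- **upward transfer**: a `D`-vertex of `A(q⁻¹ d • x)` is joined in `D` to a `D`-vertex of `A(d • x)` of the same type -/
theorem transfer {U : Finset S} (hU : FinT M U) {m : ℤ} {x : Q.X} {c : S → ℝ} (hc : Q.Adm U x m c) {d q : ArtinGroup M}
    (hd : d ∈ AP M U) (hx : Q.Le U m (d • x)) (hq : q ∈ Pos M U) {u : S} :
    ∀ w ∈ WU M U, Q.D U x m c (u, (lf M w)⁻¹ * (q⁻¹ * d)) →
      ∃ w' ∈ WU M U, Conn M U (Q.D U x m c) (u, (lf M w)⁻¹ * (q⁻¹ * d)) (u, (lf M w')⁻¹ * d) := by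
  refine pos_induction_right (P := fun q => ∀ w ∈ WU M U, Q.D U x m c (u, (lf M w)⁻¹ * (q⁻¹ * d)) →
      ∃ w' ∈ WU M U, Conn M U (Q.D U x m c) (u, (lf M w)⁻¹ * (q⁻¹ * d)) (u, (lf M w')⁻¹ * d)) hq
    (fun w hw _ => ⟨w, hw, by rw [inv_one, one_mul]; exact Conn.refl _⟩) fun q hq s hs ih w hw h => ?_
  have hd' : (q * σ M s)⁻¹ * d ∈ AP M U := mul_mem (inv_mem (pos_mem_AP (mul_mem hq (σ_mem_pos hs)))) hd
  have hx' : Q.Le U m (((q * σ M s)⁻¹ * d) • x) := by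
    rw [mul_smul]; exact le_down Q (mul_mem hq (σ_mem_pos hs)) hx
  have e : ∀ w, ln M w < ln M (sr M s * w) →
      (lf M w)⁻¹ * ((q * σ M s)⁻¹ * d) = (lf M (sr M s * w))⁻¹ * (q⁻¹ * d) := fun w h => by
    rw [lf_sr_mul h]; group
  rcases upl_or_downl (cx M) w s with h1 | h1
  · rw [e w h1] at h ⊢
    exact ih _ (mul_mem (sr_mem hs) hw) h
  · have hw1 : sr M s * w ∈ WU M U := mul_mem (sr_mem hs) hw
    have h2 : ln M (sr M s * w) < ln M (sr M s * (sr M s * w)) := by rwa [sr_sr_mul]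
    have h3 : Q.Le U m (σ M s • ((q * σ M s)⁻¹ * d) • x) := by
      rw [mul_inv_rev, mul_assoc, mul_smul, smul_inv_smul, mul_smul]
      exact le_down Q hq hx
    have h4 := fA_fold c hs h3 hw1 h2 u
    rw [sr_sr_mul] at h4
    have h5 := (D_iff hd' hx' hw1 h.1.1).2 (h4.trans_lt ((D_iff hd' hx' hw h.1.1).1 h))
    have h6 := apt_conn hU hc hd' hx' hw hw1 h h5
    rw [e _ h2] at h5 h6
    obtain ⟨w', hw', h7⟩ := ih _ (mul_mem (sr_mem hs) hw1) h5
    exact ⟨w', hw', h6.trans h7⟩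

/-- every `D`-vertex is joined in `D` to a vertex of `A(d • x)`, for every `d` above a suitable chamber `a` -/
theorem to_apt {U : Finset S} (hU : FinT M U) {m : ℤ} {x : Q.X} {c : S → ℝ} (ho : Q.Out U m x) (hc : Q.Adm U x m c)
    {p : S × ArtinGroup M} (hp : Q.D U x m c p) : ∃ a ∈ AP M U, Q.Le U m (a • x) ∧ ∀ d, d * a⁻¹ ∈ Pos M U →
      Q.Le U m (d • x) → ∃ w ∈ WU M U, Conn M U (Q.D U x m c) p (p.1, (lf M w)⁻¹ * d) := by
  obtain ⟨a, h1, h2⟩ := (ch Q hU x m ho).2 p hp.1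
  have ha : a ∈ AP M U := by
    have := mul_mem (AP_mono (erase_subset _ _) h1) hp.1.2.1
    rwa [inv_mul_cancel_right] at this
  refine ⟨a, ha, h2, fun d h3 h4 => ?_⟩
  have hd : d ∈ AP M U := by
    have := mul_mem (pos_mem_AP h3) ha
    rwa [inv_mul_cancel_right] at this
  have e : (lf M 1)⁻¹ * ((d * a⁻¹)⁻¹ * d) = a := by rw [lf_one]; group
  obtain ⟨w, hw, h5⟩ := transfer hU hc hd h4 h3 (u := p.1) 1 (one_mem _) (by rw [e]; exact hp.vertex h1)
  rw [e] at h5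
  exact ⟨w, hw, (Conn.single hp (hp.vertex h1) (Or.inr ⟨rfl, h1⟩)).trans h5⟩

/-- if `D ≠ ∅` then above every chamber `a` in `D^{≤ m}` there is `d` whose apartment meets `D` -/
theorem exists_above {U : Finset S} (hU : FinT M U) {m : ℤ} {x : Q.X} {c : S → ℝ} (ho : Q.Out U m x) (hc : Q.Adm U x m c)
    (hD : ∃ p, Q.D U x m c p) {a : ArtinGroup M} (ha : a ∈ AP M U) (hx : Q.Le U m (a • x)) :
    ∃ d, d * a⁻¹ ∈ Pos M U ∧ Q.Le U m (d • x) ∧ ∃ w ∈ WU M U, ∃ u ∈ U, fA Q (d • x) m c w u < 0 := by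
  obtain ⟨p, hp⟩ := hD
  obtain ⟨a', h1, h2, h3⟩ := to_apt hU ho hc hp
  obtain ⟨d, b1, b2, b3⟩ := dir Q hU x m a ha a' h1 hx h2
  obtain ⟨w, hw, h4⟩ := h3 d b2 b3
  have hd : d ∈ AP M U := by
    have := mul_mem (pos_mem_AP b1) ha
    rwa [inv_mul_cancel_right] at this
  exact ⟨d, b1, b3, w, hw, p.1, hp.1.1, (D_iff hd b3 hw hp.1.1).1 (h4.mem hp)⟩

end Crest.Agent.R175.P.Apt
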