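import Crest.Agent.R175.Dir.Bridge

/-!
# R175/Apt/Geo: the Coxeter complex of a finite type `U`, convex vertex functions (owner helper66)

Chamber `w ∈ W_U` = `{y | ∀ u ∈ U, 0 ≤ co M w y u}`, vertex `(u, w)` = `vtx M U w u = w ω_u ∈ VU U`.
-/

set_option autoImplicit false
set_option linter.unusedSectionVars false

open Finset Crest.GroupTheory Crest.Agent.R61 Crest.Agent.R175.Cox

noncomputable section

namespace Crest.Agent.R175.P.Apt

variable {S : Type} [Fintype S] [DecidableEq S] (M : CoxeterMatrix S)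

/-- simple reflections -/
abbrev sr (s : S) : M.Group := (cx M).simple s
/-- length -/
abbrev ln (w : M.Group) : ℕ := (cx M).length w
/-- `W_U` -/
abbrev WU (U : Finset S) : Subgroup M.Group := par (cx M) (U : Set S)
/-- coordinates of `y` in the chamber `w` -/
def co (w : M.Group) (y : V S) (u : S) : ℝ := form M (al u) (rep (cx M) w⁻¹ y)
/-- `y` lies in the closed chamber `w` -/
def InCh (U : Finset S) (w : M.Group) (y : V S) : Prop := w ∈ WU M U ∧ ∀ u ∈ U, 0 ≤ co M w y u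
open Classical in
/-- fundamental weights inside the span of the `α_i`, `i ∈ U` -/
def om (U : Finset S) (u : S) : V S :=
  if h : ∃ y ∈ VU (U : Set S), ∀ i ∈ U, form M (al i) y = if i = u then 1 else 0 then h.choose else 0
/-- the vertex of type `u` of the chamber `w` -/
def vtx (U : Finset S) (w : M.Group) (u : S) : V S := rep (cx M) w (om M U u)
/-- `N w u` only depends on the vertex `(u, w)` -/
def Inv (U : Finset S) (N : M.Group → S → Prop) : Prop :=
  ∀ w ∈ WU M U, ∀ s ∈ U, ∀ u, u ≠ s → N w u → N (w * sr M s) u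
/-- convex vertex functions -/
structure Cvx (U : Finset S) (f : M.Group → S → ℝ) : Prop where
  inv : ∀ w ∈ WU M U, ∀ s ∈ U, ∀ u, u ≠ s → f (w * sr M s) u = f w u
  cvx : ∀ w ∈ WU M U, ∀ s ∈ U, ∑ u ∈ U, adj M s u * f w u ≤ f w s + f (w * sr M s) s
/-- the linear functional of the chamber `w` -/
def ell (U : Finset S) (f : M.Group → S → ℝ) (w : M.Group) (y : V S) : ℝ := ∑ u ∈ U, f w u * co M w y u
open Classical in
/-- the piecewise linear extension of `f` -/
def phi (U : Finset S) (f : M.Group → S → ℝ) (y : V S) : ℝ :=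
  if h : ∃ w, InCh M U w y then ell M U f h.choose y else 0
/-- the carrier of `y` has a vertex in `N` -/
def Sup (U : Finset S) (N : M.Group → S → Prop) (y : V S) : Prop :=
  ∃ w, InCh M U w y ∧ ∃ u ∈ U, 0 < co M w y u ∧ N w u

variable {M}

theorem sr_mem {U : Finset S} {s : S} (hs : s ∈ U) : sr M s ∈ WU M U := simple_mem_par (cx M) hs

theorem sr_mul_sr (s : S) : sr M s * sr M s = 1 := (cx M).simple_mul_simple_self s

/-! ### coordinates -/

theorem co_add (w : M.Group) (y y' : V S) (u : S) : co M w (y + y') u = co M w y u + co M w y' u := by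
  simp only [co, map_add]

theorem co_smul (w : M.Group) (t : ℝ) (y : V S) (u : S) : co M w (t • y) u = t * co M w y u := by
  simp only [co, map_smul, smul_eq_mul]

theorem co_neg (w : M.Group) (y : V S) (u : S) : co M w (-y) u = -co M w y u := by
  simp only [co, map_neg]

theorem co_one (y : V S) (u : S) : co M 1 y u = form M (al u) y := by
  rw [co, inv_one, rep_one]

theorem co_rep (g w : M.Group) (y : V S) (u : S) : co M (g * w) (rep (cx M) g y) u = co M w y u := by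
  rw [co, co, mul_inv_rev, rep_mul, rep_inv_rep]

theorem co_sr (w : M.Group) (s : S) (y : V S) (u : S) : co M (w * sr M s) y u = co M w y u - Cm M s u * co M w y s := by
  rw [co, mul_inv_rev, (cx M).inv_simple, rep_mul, form_al_rep_simple, co, co]

theorem co_sr_self (w : M.Group) (s : S) (y : V S) : co M (w * sr M s) y s = -co M w y s := by
  rw [co_sr, Cm_self]; ring

theorem InCh.rep {U : Finset S} {w g : M.Group} {y : V S} (h : InCh M U w y) (hg : g ∈ WU M U) :
    InCh M U (g * w) (rep (cx M) g y) :=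
  ⟨mul_mem hg h.1, fun u hu => by rw [co_rep]; exact h.2 u hu⟩

theorem InCh.smul {U : Finset S} {w : M.Group} {y : V S} (h : InCh M U w y) {t : ℝ} (ht : 0 ≤ t) :
    InCh M U w (t • y) :=
  ⟨h.1, fun u hu => by rw [co_smul]; exact mul_nonneg ht (h.2 u hu)⟩

theorem InCh.add {U : Finset S} {w : M.Group} {y y' : V S} (h : InCh M U w y) (h' : InCh M U w y') :
    InCh M U w (y + y') :=
  ⟨h.1, fun u hu => by rw [co_add]; exact add_nonneg (h.2 u hu) (h'.2 u hu)⟩

theorem InCh.dom {U : Finset S} {w : M.Group} {y : V S} (h : InCh M U w y) :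
    Dom M (U : Set S) (R61.rep (cx M) w⁻¹ y) := fun u hu => h.2 u hu

theorem exists_inCh {U : Finset S} (hU : FinT M U) (y : V S) : ∃ w, InCh M U w y := by
  obtain ⟨w, hw, h⟩ := hU.sph.cover y
  exact ⟨w⁻¹, inv_mem hw, fun u hu => by rw [co, inv_inv]; exact h u hu⟩

/-- two chambers containing `y` differ by the stabiliser, and the coordinates agree -/
theorem InCh.stab {U : Finset S} {w w' : M.Group} {y : V S} (h : InCh M U w y) (h' : InCh M U w' y) :
    w⁻¹ * w' ∈ par (cx M) {i | i ∈ (U : Set S) ∧ co M w y i = 0} ∧ ∀ u, co M w' y u = co M w y u := by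
  have e : R61.rep (cx M) (w'⁻¹ * w) (R61.rep (cx M) w⁻¹ y) = R61.rep (cx M) w'⁻¹ y := by
    rw [rep_mul, rep_rep_inv]
  have hm : w'⁻¹ * w ∈ par (cx M) (U : Set S) := mul_mem (inv_mem h'.1) h.1
  have h1 := h.dom.stab (cx M) hm (e ▸ h'.dom)
  have h2 := h.dom.rep_eq (cx M) hm (e ▸ h'.dom)
  refine ⟨?_, fun u => by rw [co, ← e, h2, co]⟩
  have := inv_mem h1
  rwa [mul_inv_rev, inv_inv] at this

/-- chambers with `t w > w` lie on the positive side of the wall of `t` -/
theorem InCh.side_up {U : Finset S} {w : M.Group} {y : V S} (h : InCh M U w y) {t : S} (ht : t ∈ U)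
    (hl : ln M w < ln M (sr M t * w)) : 0 ≤ form M (al t) y := by
  have := h.dom.side_up (cx M) h.1 ht hl
  rwa [rep_rep_inv] at this

theorem InCh.side_down {U : Finset S} {w : M.Group} {y : V S} (h : InCh M U w y) {t : S} (ht : t ∈ U)
    (hl : ln M (sr M t * w) < ln M w) : form M (al t) y ≤ 0 := by
  have := h.dom.side_down (cx M) h.1 ht hl
  rwa [rep_rep_inv] at this

theorem rep_sr_of_zero {t : S} {y : V S} (h : form M (al t) y = 0) : rep (cx M) (sr M t) y = y := by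
  rw [rep_simple, h, mul_zero, zero_smul, sub_zero]

/-- a point on the positive side of the wall of `t` lies in a chamber with `t w > w` -/
theorem exists_inCh_up {U : Finset S} (hU : FinT M U) {t : S} (ht : t ∈ U) {y : V S} (hy : 0 ≤ form M (al t) y) :
    ∃ w, InCh M U w y ∧ ln M w < ln M (sr M t * w) := by
  obtain ⟨w, hw⟩ := exists_inCh hU y
  rcases upl_or_downl (cx M) w t with h | h
  · exact ⟨w, hw, h⟩
  · have h0 : form M (al t) y = 0 := le_antisymm (hw.side_down ht h) hy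
    have h1 := hw.rep (sr_mem ht)
    rw [rep_sr_of_zero h0] at h1
    refine ⟨_, h1, ?_⟩
    rw [← mul_assoc, sr_mul_sr, one_mul]
    exact h

theorem eq_zero_of_co {U : Finset S} (hU : FinT M U) {w : M.Group} (hw : w ∈ WU M U) {y : V S}
    (hy : y ∈ VU (U : Set S)) (h : ∀ u ∈ U, co M w y u = 0) : y = 0 := by
  have h1 : rep (cx M) w⁻¹ y ∈ VU (U : Set S) := rep_mem_VU (cx M) (inv_mem hw) hy
  by_contra h0
  have h2 : rep (cx M) w⁻¹ y ≠ 0 := fun h3 => h0 (by rw [← rep_rep_inv (cx M) w y, h3, map_zero])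
  have h3 := hU.sph.pd.form_pos h1 h2
  obtain ⟨x, hx, e⟩ := exists_vec h1
  nth_rewrite 1 [e] at h3
  rw [form_vec, Finset.sum_eq_zero fun i _ => ?_] at h3
  · exact lt_irrefl _ h3
  · by_cases hi : i ∈ U
    · have := h i hi
      rw [co] at this
      rw [this, mul_zero]
    · rw [hx i hi, zero_mul]

/-! ### vertices -/

theorem om_spec {U : Finset S} (hU : FinT M U) (u : S) :
    om M U u ∈ VU (U : Set S) ∧ ∀ i ∈ U, form M (al i) (om M U u) = if i = u then 1 else 0 := by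
  have h : ∃ y ∈ VU (U : Set S), ∀ i ∈ U, form M (al i) y = if i = u then 1 else 0 := by
    obtain ⟨x, hx, h⟩ := hU.sph.pd.exists_dual fun i => if i = u then 2 else 0
    refine ⟨vec x, vec_mem_VU.2 hx, fun i hi => ?_⟩
    have h1 := h i hi
    rw [← form_al_vec] at h1
    split_ifs at h1 ⊢ <;> linarith
  rw [om, dif_pos h]
  exact h.choose_spec

theorem co_vtx {U : Finset S} (hU : FinT M U) (w : M.Group) (u : S) {i : S} (hi : i ∈ U) :
    co M w (vtx M U w u) i = if i = u then 1 else 0 := by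
  rw [co, vtx, rep_inv_rep, (om_spec hU u).2 i hi]

theorem vtx_mem {U : Finset S} (hU : FinT M U) {w : M.Group} (hw : w ∈ WU M U) (u : S) :
    vtx M U w u ∈ VU (U : Set S) := rep_mem_VU (cx M) hw (om_spec hU u).1

theorem inCh_vtx {U : Finset S} (hU : FinT M U) {w : M.Group} (hw : w ∈ WU M U) (u : S) : InCh M U w (vtx M U w u) :=
  ⟨hw, fun i hi => by rw [co_vtx hU w u hi]; split_ifs <;> norm_num⟩

theorem vtx_ne_zero {U : Finset S} (hU : FinT M U) (w : M.Group) {u : S} (hu : u ∈ U) : vtx M U w u ≠ 0 := by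
  intro h
  have := co_vtx hU w u hu
  rw [h, if_pos rfl, co, map_zero, map_zero] at this
  exact zero_ne_one this

theorem vtx_mul (U : Finset S) (g w : M.Group) (u : S) : vtx M U (g * w) u = rep (cx M) g (vtx M U w u) := by
  rw [vtx, vtx, rep_mul]

/-- a chamber containing the vertex `(u, w)` has it as its vertex of type `u` -/
theorem InCh.of_vtx {U : Finset S} (hU : FinT M U) {w w' : M.Group} (hw : w ∈ WU M U) {u : S}
    (h : InCh M U w' (vtx M U w u)) :
    w⁻¹ * w' ∈ WU M (U.erase u) ∧ ∀ i ∈ U, co M w' (vtx M U w u) i = if i = u then 1 else 0 := by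
  obtain ⟨h1, h2⟩ := (inCh_vtx hU hw u).stab h
  refine ⟨par_mono (cx M) (fun i hi => ?_) h1, fun i hi => by rw [h2, co_vtx hU w u hi]⟩
  have h3 := hi.2
  rw [co_vtx hU w u hi.1] at h3
  refine Finset.mem_coe.2 (Finset.mem_erase.2 ⟨fun h4 => ?_, hi.1⟩)
  rw [if_pos h4] at h3
  exact one_ne_zero h3

theorem Inv.par {U : Finset S} {N : M.Group → S → Prop} (hN : Inv M U N) {w v : M.Group} (hw : w ∈ WU M U) {u : S}
    (hv : v ∈ WU M (U.erase u)) (h : N w u) : N (w * v) u := by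
  have hsub : WU M (U.erase u) ≤ WU M U := par_mono (cx M) (Finset.coe_subset.2 (Finset.erase_subset u U))
  refine par_induction_right (cx M) (p := fun v => N (w * v) u) hv (by rwa [mul_one]) fun v hv i hi _ ih => ?_
  have hi' := Finset.mem_erase.1 (Finset.mem_coe.1 hi)
  rw [← mul_assoc]
  exact hN _ (mul_mem hw (hsub hv)) i hi'.2 u hi'.1.symm ih

theorem Cvx.inv' {U : Finset S} {f : M.Group → S → ℝ} (hf : Cvx M U f) (p : S → ℝ → Prop) :
    Inv M U fun w u => p u (f w u) := fun w hw s hs u hu h => by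
  show p u (f (w * sr M s) u)
  rwa [hf.inv w hw s hs u hu]

theorem Cvx.par {U : Finset S} {f : M.Group → S → ℝ} (hf : Cvx M U f) {w v : M.Group} (hw : w ∈ WU M U) {u : S}
    (hv : v ∈ WU M (U.erase u)) : f (w * v) u = f w u :=
  (hf.inv' fun u r => r = f w u).par hw hv rfl

/-- vertices of the carrier are vertices of every chamber containing the point -/
theorem Inv.carrier {U : Finset S} {N : M.Group → S → Prop} (hN : Inv M U N) {w w' : M.Group} {y : V S}
    (h : InCh M U w y) (h' : InCh M U w' y) {u : S} (hu : 0 < co M w y u) (hn : N w u) : N w' u := by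
  have h1 : w⁻¹ * w' ∈ WU M (U.erase u) := par_mono (cx M) (fun i hi => Finset.mem_coe.2
    (Finset.mem_erase.2 ⟨fun h4 : i = u => hu.ne' (by rw [← h4]; exact hi.2), hi.1⟩)) (h.stab h').1
  have := hN.par h.1 h1 hn
  rwa [mul_inv_cancel_left] at this

theorem Sup.ch {U : Finset S} {N : M.Group → S → Prop} (hN : Inv M U N) {y : V S} (h : Sup M U N y) {w : M.Group}
    (hw : InCh M U w y) : ∃ u ∈ U, 0 < co M w y u ∧ N w u := by
  obtain ⟨w', hw', u, hu, h1, h2⟩ := h
  exact ⟨u, hu, by rw [(hw'.stab hw).2]; exact h1, hN.carrier hw' hw h1 h2⟩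

theorem sup_vtx {U : Finset S} (hU : FinT M U) {N : M.Group → S → Prop} (hN : Inv M U N) {w : M.Group}
    (hw : w ∈ WU M U) {u : S} (hu : u ∈ U) : Sup M U N (vtx M U w u) ↔ N w u := by
  refine ⟨fun h => ?_, fun h => ⟨w, inCh_vtx hU hw u, u, hu, by rw [co_vtx hU w u hu, if_pos rfl]; exact one_pos, h⟩⟩
  obtain ⟨i, hi, h1, h2⟩ := h.ch hN (inCh_vtx hU hw u)
  rw [co_vtx hU w u hi] at h1
  split_ifs at h1 with h3
  · exact h3 ▸ h2
  · exact (lt_irrefl _ h1).elim

theorem Sup.mono {U : Finset S} {N N' : M.Group → S → Prop} (h : ∀ w ∈ WU M U, ∀ u ∈ U, N w u → N' w u) {y : V S}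
    (hy : Sup M U N y) : Sup M U N' y := by
  obtain ⟨w, hw, u, hu, h1, h2⟩ := hy
  exact ⟨w, hw, u, hu, h1, h w hw.1 u hu h2⟩

/-- some closed chamber contains `y` and `y + τ y'` for all small `τ ≥ 0` -/
theorem exists_near {U : Finset S} (hU : FinT M U) (y y' : V S) :
    ∃ w, InCh M U w y ∧ ∃ τ₀ > (0 : ℝ), ∀ τ, 0 ≤ τ → τ ≤ τ₀ → InCh M U w (y + τ • y') := by
  obtain ⟨w₀, h₀⟩ := exists_inCh hU y
  set I : Set S := {i | i ∈ (U : Set S) ∧ co M w₀ y i = 0} with hI
  have hIU : I ⊆ (U : Set S) := fun i hi => hi.1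
  obtain ⟨v, hv, hd⟩ := (hU.sph.mono hIU).cover (rep (cx M) w₀⁻¹ y')
  have hfix : rep (cx M) v (rep (cx M) w₀⁻¹ y) = rep (cx M) w₀⁻¹ y := rep_fix (cx M) (fun i hi => hi.2) hv
  have hw : w₀ * v⁻¹ ∈ WU M U := mul_mem h₀.1 (inv_mem (par_mono (cx M) hIU hv))
  have e1 : ∀ u, co M (w₀ * v⁻¹) y u = co M w₀ y u := fun u => by
    rw [co, mul_inv_rev, inv_inv, rep_mul, hfix, co]
  have e2 : ∀ u ∈ I, 0 ≤ co M (w₀ * v⁻¹) y' u := fun u hu => by
    rw [co, mul_inv_rev, inv_inv, rep_mul]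
    exact hd u hu
  have hev : ∀ᶠ τ in nhds (0 : ℝ), ∀ u ∈ U, u ∉ I → 0 < co M w₀ y u + τ * co M (w₀ * v⁻¹) y' u := by
    refine (Finset.eventually_all U).2 fun u hu => ?_
    by_cases hi : u ∈ I
    · exact Filter.Eventually.of_forall fun _ h => (h hi).elim
    · have h1 : 0 < co M w₀ y u := (h₀.2 u hu).lt_of_ne fun h => hi ⟨hu, h.symm⟩
      have h2 : Continuous fun τ : ℝ => co M w₀ y u + τ * co M (w₀ * v⁻¹) y' u := by fun_prop
      filter_upwards [h2.continuousAt.eventually (lt_mem_nhds (show (0 : ℝ) < co M w₀ y u +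
        0 * co M (w₀ * v⁻¹) y' u by simpa using h1))] with τ hτ _ using hτ
  obtain ⟨ε, hε, hb⟩ := Metric.eventually_nhds_iff.1 hev
  refine ⟨w₀ * v⁻¹, ⟨hw, fun u hu => by rw [e1]; exact h₀.2 u hu⟩, ε / 2, by positivity, fun τ h0 h1 => ⟨hw, fun u hu => ?_⟩⟩
  rw [co_add, co_smul, e1]
  by_cases hi : u ∈ I
  · exact add_nonneg (h₀.2 u hu) (mul_nonneg h0 (e2 u hi))
  · exact (hb (by rw [Real.dist_eq, sub_zero, abs_of_nonneg h0]; linarith) u hu hi).le

/-- **segment lemma.** `P`, `N` are sets of vertices, `P` spreads to the `N`-vertices of a common chamber. If every point of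
a segment has an `N`-vertex in its carrier then `P` spreads along the segment. -/
theorem seg {U : Finset S} (hU : FinT M U) {N P : M.Group → S → Prop} (hN : Inv M U N) (hP : Inv M U P)
    (hch : ∀ w ∈ WU M U, ∀ u ∈ U, ∀ u' ∈ U, P w u → N w u' → P w u') {y₁ y₂ : V S}
    (h : ∀ τ : ℝ, 0 ≤ τ → τ ≤ 1 → Sup M U N ((1 - τ) • y₁ + τ • y₂)) (h₁ : Sup M U P y₁) : Sup M U P y₂ := by
  have hfin : (WU M U : Set M.Group).Finite := hU.sph
  have hcl : ∀ R : M.Group → Prop, IsClosed {τ : ℝ | ∃ w, InCh M U w ((1 - τ) • y₁ + τ • y₂) ∧ R w} := fun R => by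
    have e : {τ : ℝ | ∃ w, InCh M U w ((1 - τ) • y₁ + τ • y₂) ∧ R w} =
        ⋃ w ∈ {w | w ∈ (WU M U : Set M.Group) ∧ R w}, ⋂ u ∈ U, {τ : ℝ | 0 ≤ (1 - τ) * co M w y₁ u + τ * co M w y₂ u} := by
      ext τ
      simp only [Set.mem_ofPred_eq, Set.mem_iUnion, Set.mem_iInter, InCh, co_add, co_smul, SetLike.mem_coe]
      exact ⟨fun ⟨w, ⟨a, b⟩, c⟩ => ⟨w, ⟨a, c⟩, b⟩, fun ⟨w, ⟨a, c⟩, b⟩ => ⟨w, ⟨a, b⟩, c⟩⟩
    rw [e]
    exact (hfin.subset fun w hw => hw.1).isClosed_biUnion fun w _ =>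
      isClosed_biInter fun u _ => isClosed_le continuous_const (by fun_prop)
  have key := isPreconnected_closed_iff.1 (isPreconnected_Icc (a := (0 : ℝ)) (b := 1)) _ _
    (hcl fun w => ∃ u ∈ U, P w u) (hcl fun w => ∃ u ∈ U, N w u ∧ ¬ P w u) (fun τ hτ => by
      obtain ⟨w, hw, u, hu, -, h2⟩ := h τ hτ.1 hτ.2
      by_cases h3 : P w u
      · exact Or.inl ⟨w, hw, u, hu, h3⟩
      · exact Or.inr ⟨w, hw, u, hu, h2, h3⟩) (by
      obtain ⟨w, hw, u, hu, -, h2⟩ := h₁
      exact ⟨0, ⟨le_rfl, zero_le_one⟩, w, by simpa using hw, u, hu, h2⟩)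
  by_contra hn
  obtain ⟨τ, hτ, ⟨w, hw, u, hu, h1⟩, w', hw', u', hu', h2, h3⟩ := key (by
    obtain ⟨w, hw, u, hu, h1, h2⟩ := h 1 zero_le_one le_rfl
    have e : (1 - 1 : ℝ) • y₁ + (1 : ℝ) • y₂ = y₂ := by simp
    refine ⟨1, ⟨zero_le_one, le_rfl⟩, w, hw, u, hu, h2, fun h3 => hn ?_⟩
    rw [e] at hw h1
    exact ⟨w, hw, u, hu, h1, h3⟩)
  obtain ⟨i, hi, h4, h5⟩ := (h τ hτ.1 hτ.2).ch hN hw
  exact h3 (hch w' hw'.1 i hi u' hu' (hP.carrier hw hw' h4 (hch w hw.1 u hu i hi h1 h5)) h2)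

/-! ### the convex function -/

theorem ell_add (U : Finset S) (f : M.Group → S → ℝ) (w : M.Group) (y y' : V S) :
    ell M U f w (y + y') = ell M U f w y + ell M U f w y' := by
  simp only [ell, co_add, mul_add, Finset.sum_add_distrib]

theorem ell_smul (U : Finset S) (f : M.Group → S → ℝ) (w : M.Group) (t : ℝ) (y : V S) :
    ell M U f w (t • y) = t * ell M U f w y := by
  simp only [ell, co_smul, Finset.mul_sum]
  exact Finset.sum_congr rfl fun _ _ => by ring

theorem ell_neg (U : Finset S) (f : M.Group → S → ℝ) (w : M.Group) (y : V S) : ell M U f w (-y) = -ell M U f w y := by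
  rw [← neg_one_smul ℝ y, ell_smul, neg_one_mul]

/-- `α_t` has the coordinates `Cm t u / 2` in the chamber `1` -/
theorem ell_one_al {U : Finset S} (f : M.Group → S → ℝ) {t : S} (ht : t ∈ U) :
    2 * ell M U f 1 (al t) = 2 * f 1 t - ∑ u ∈ U, adj M t u * f 1 u := by
  rw [ell, Finset.mul_sum, ← Finset.add_sum_erase U _ ht, ← Finset.add_sum_erase U _ ht, adj_self, zero_mul, zero_add,
    co_one, form_al_self, mul_one, sub_eq_add_neg, ← Finset.sum_neg_distrib]
  congr 1
  refine Finset.sum_congr rfl fun u hu => ?_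
  rw [adj_eq M (Finset.ne_of_mem_erase hu).symm, co_one, Cm_symm, Cm_form]
  ring

theorem Cvx.ell_sr {U : Finset S} {f : M.Group → S → ℝ} (hf : Cvx M U f) {w : M.Group} (hw : w ∈ WU M U) {s : S}
    (hs : s ∈ U) (y : V S) : ell M U f (w * sr M s) y =
      ell M U f w y - (f w s + f (w * sr M s) s - ∑ u ∈ U, adj M s u * f w u) * co M w y s := by
  rw [ell, ell, ← Finset.add_sum_erase U _ hs, ← Finset.add_sum_erase U _ hs, ← Finset.add_sum_erase U _ hs, adj_self,
    zero_mul, zero_add, co_sr_self]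
  have e : ∑ u ∈ U.erase s, f (w * sr M s) u * co M (w * sr M s) y u =
      ∑ u ∈ U.erase s, f w u * co M w y u + (∑ u ∈ U.erase s, adj M s u * f w u) * co M w y s := by
    rw [Finset.sum_mul, ← Finset.sum_add_distrib]
    refine Finset.sum_congr rfl fun u hu => ?_
    have h := Finset.ne_of_mem_erase hu
    rw [hf.inv w hw s hs u h, co_sr, adj_eq M h.symm]
    ring
  rw [e]
  ring

/-- on its chamber the functional of `w` is the largest one -/
theorem Cvx.ell_le {U : Finset S} {f : M.Group → S → ℝ} (hf : Cvx M U f) {w w' : M.Group} {y : V S} (h : InCh M U w y)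
    (hw' : w' ∈ WU M U) : ell M U f w' y ≤ ell M U f w y := by
  have key : ∀ v ∈ WU M U, ell M U f (w * v) y ≤ ell M U f w y := fun v hv => by
    refine par_induction_right (cx M) (p := fun v => ell M U f (w * v) y ≤ ell M U f w y) hv (by rw [mul_one])
      fun v hv i hi hl ih => ?_
    have hwv : w * v ∈ WU M U := mul_mem h.1 hv
    have h1 : 0 ≤ co M (w * v) y i := by
      rw [co, mul_inv_rev, rep_mul]
      refine h.dom.side_up (cx M) (inv_mem hv) hi ?_
      rw [length_simple_mul_eq, inv_inv, (cx M).length_inv, hl]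
      exact Nat.lt_succ_self _
    have h2 := hf.cvx _ hwv i hi
    rw [← mul_assoc, hf.ell_sr hwv hi]
    nlinarith
  have := key (w⁻¹ * w') (mul_mem (inv_mem h.1) hw')
  rwa [mul_inv_cancel_left] at this

theorem Cvx.phi_eq {U : Finset S} {f : M.Group → S → ℝ} (hf : Cvx M U f) {w : M.Group} {y : V S} (h : InCh M U w y) :
    phi M U f y = ell M U f w y := by
  have h0 : ∃ w, InCh M U w y := ⟨w, h⟩
  rw [phi, dif_pos h0]
  exact le_antisymm (hf.ell_le h h0.choose_spec.1) (hf.ell_le h0.choose_spec h.1)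

theorem Cvx.le_phi {U : Finset S} (hU : FinT M U) {f : M.Group → S → ℝ} (hf : Cvx M U f) {w : M.Group}
    (hw : w ∈ WU M U) (y : V S) : ell M U f w y ≤ phi M U f y := by
  obtain ⟨w', h⟩ := exists_inCh hU y
  rw [hf.phi_eq h]
  exact hf.ell_le h hw

theorem Cvx.phi_add {U : Finset S} (hU : FinT M U) {f : M.Group → S → ℝ} (hf : Cvx M U f) (y y' : V S) :
    phi M U f (y + y') ≤ phi M U f y + phi M U f y' := by
  obtain ⟨w, h⟩ := exists_inCh hU (y + y')
  rw [hf.phi_eq h, ell_add]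
  exact add_le_add (hf.le_phi hU h.1 y) (hf.le_phi hU h.1 y')

theorem Cvx.phi_smul {U : Finset S} (hU : FinT M U) {f : M.Group → S → ℝ} (hf : Cvx M U f) {t : ℝ} (ht : 0 ≤ t)
    (y : V S) : phi M U f (t • y) = t * phi M U f y := by
  obtain ⟨w, h⟩ := exists_inCh hU y
  rw [hf.phi_eq h, hf.phi_eq (h.smul ht), ell_smul]

theorem Cvx.phi_vtx {U : Finset S} (hU : FinT M U) {f : M.Group → S → ℝ} (hf : Cvx M U f) {w : M.Group}
    (hw : w ∈ WU M U) {u : S} (hu : u ∈ U) : phi M U f (vtx M U w u) = f w u := by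
  rw [hf.phi_eq (inCh_vtx hU hw u), ell, Finset.sum_congr rfl fun i hi => by rw [co_vtx hU w u hi]]
  simp [hu]

theorem Cvx.phi_nonneg {U : Finset S} (hU : FinT M U) {f : M.Group → S → ℝ} (hf : Cvx M U f)
    (h0 : ∀ w ∈ WU M U, ∀ u ∈ U, 0 ≤ f w u) (y : V S) : 0 ≤ phi M U f y := by
  obtain ⟨w, h⟩ := exists_inCh hU y
  rw [hf.phi_eq h]
  exact Finset.sum_nonneg fun u hu => mul_nonneg (h0 w h.1 u hu) (h.2 u hu)

/-- a point with `phi < 0` has a negative vertex in its carrier -/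
theorem Cvx.sup_neg {U : Finset S} (hU : FinT M U) {f : M.Group → S → ℝ} (hf : Cvx M U f) {y : V S}
    (h : phi M U f y < 0) : Sup M U (fun w u => f w u < 0) y := by
  obtain ⟨w, hw⟩ := exists_inCh hU y
  rw [hf.phi_eq hw] at h
  by_contra hn
  refine not_le.2 h (Finset.sum_nonneg fun u hu => ?_)
  rcases (hw.2 u hu).eq_or_lt with h1 | h1
  · rw [← h1, mul_zero]
  · exact mul_nonneg (not_lt.1 fun h2 => hn ⟨w, hw, u, hu, h1, h2⟩) h1.le

/-- if `f ≥ 0`, all vertices of the carrier of a zero of `phi` are zeros -/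
theorem Cvx.zero_carrier {U : Finset S} {f : M.Group → S → ℝ} (hf : Cvx M U f)
    (h0 : ∀ w ∈ WU M U, ∀ u ∈ U, 0 ≤ f w u) {w : M.Group} {y : V S} (hw : InCh M U w y) (h : phi M U f y ≤ 0) {u : S}
    (hu : u ∈ U) (h1 : 0 < co M w y u) : f w u = 0 := by
  rw [hf.phi_eq hw] at h
  have h2 := (Finset.sum_eq_zero_iff_of_nonneg fun i hi => mul_nonneg (h0 w hw.1 i hi) (hw.2 i hi)).1
    (le_antisymm h (Finset.sum_nonneg fun i hi => mul_nonneg (h0 w hw.1 i hi) (hw.2 i hi))) u hu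
  exact (mul_eq_zero.1 h2).resolve_right h1.ne'

theorem Cvx.sup_zero {U : Finset S} (hU : FinT M U) {f : M.Group → S → ℝ} (hf : Cvx M U f)
    (h0 : ∀ w ∈ WU M U, ∀ u ∈ U, 0 ≤ f w u) {y : V S} (hy : y ∈ VU (U : Set S)) (hne : y ≠ 0) (h : phi M U f y ≤ 0) :
    Sup M U (fun w u => f w u = 0) y := by
  obtain ⟨w, hw⟩ := exists_inCh hU y
  by_contra hn
  refine hne (eq_zero_of_co hU hw.1 hy fun u hu => ?_)
  rcases (hw.2 u hu).eq_or_lt with h1 | h1
  · exact h1.symm
  · exact (hn ⟨w, hw, u, hu, h1, hf.zero_carrier h0 hw h hu h1⟩).elim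

/-- **negative vertices are connected** -/
theorem Cvx.neg_conn {U : Finset S} (hU : FinT M U) {f : M.Group → S → ℝ} (hf : Cvx M U f) {P : M.Group → S → Prop}
    (hP : Inv M U P) (hPN : ∀ w ∈ WU M U, ∀ u ∈ U, P w u → f w u < 0)
    (hch : ∀ w ∈ WU M U, ∀ u ∈ U, ∀ u' ∈ U, P w u → f w u' < 0 → P w u') {w w' : M.Group} (hw : w ∈ WU M U)
    (hw' : w' ∈ WU M U) {u u' : S} (hu : u ∈ U) (hu' : u' ∈ U) (h : P w u) (h' : f w' u' < 0) : P w' u' := by
  refine (sup_vtx hU hP hw' hu').1 (seg hU (hf.inv' fun _ r => r < 0) hP hch (y₁ := vtx M U w u)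
    (fun τ h0 h1 => hf.sup_neg hU ?_) ((sup_vtx hU hP hw hu).2 h))
  refine (hf.phi_add hU _ _).trans_lt ?_
  rw [hf.phi_smul hU (sub_nonneg.2 h1), hf.phi_smul hU h0, hf.phi_vtx hU hw hu, hf.phi_vtx hU hw' hu']
  have := hPN w hw u hu h
  rcases h0.eq_or_lt with h2 | h2
  · rw [← h2]; linarith
  · nlinarith

/-- a zero vertex has a negative neighbour as soon as there is a negative vertex -/
theorem Cvx.zero_nbr {U : Finset S} (hU : FinT M U) {f : M.Group → S → ℝ} (hf : Cvx M U f) {w w' : M.Group}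
    (hw : w ∈ WU M U) (hw' : w' ∈ WU M U) {u u' : S} (hu : u ∈ U) (hu' : u' ∈ U) (h : f w u ≤ 0) (h' : f w' u' < 0) :
    ∃ v ∈ WU M (U.erase u), ∃ i ∈ U, f (w * v) i < 0 := by
  obtain ⟨w₁, h1, τ, hτ, h2⟩ := exists_near hU (vtx M U w u) (vtx M U w' u')
  have h3 : phi M U f (vtx M U w u + τ • vtx M U w' u') < 0 := by
    refine (hf.phi_add hU _ _).trans_lt ?_
    rw [hf.phi_smul hU hτ.le, hf.phi_vtx hU hw hu, hf.phi_vtx hU hw' hu']
    nlinarith
  obtain ⟨i, hi, -, h4⟩ := (hf.sup_neg hU h3).ch (hf.inv' fun _ r => r < 0) (h2 τ hτ.le le_rfl)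
  exact ⟨w⁻¹ * w₁, (h1.of_vtx hU hw).1, i, hi, by rwa [mul_inv_cancel_left]⟩

end Crest.Agent.R175.P.Apt
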