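import Crest.Agent.R175.Apt.Api

/-! # R175/Apt/Main: claim `C(U)` for `U` of finite type (owner helper66) -/

set_option autoImplicit false

noncomputable section

namespace Crest.Agent.R175.P

variable {S : Type} [Fintype S] [DecidableEq S] {M : CoxeterMatrix S}

theorem cfin (Q : Mdl M) {U : Finset S} (hU : FinT M U) : S_C Q U := by
  intro x m c ho hc p q hp hq
  obtain ⟨a, a1, a2, a3⟩ := Apt.to_apt hU ho hc hp
  obtain ⟨b, b1, b2, b3⟩ := Apt.to_apt hU ho hc hq
  obtain ⟨d, d1, d2, d3⟩ := dir Q hU x m a a1 b b1 a2 b2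
  obtain ⟨w, hw, h1⟩ := a3 d d1 d3
  obtain ⟨w', hw', h2⟩ := b3 d d2 d3
  have hd : d ∈ AP M U := by
    have := mul_mem (pos_mem_AP d1) a1
    rwa [inv_mul_cancel_right] at this
  exact h1.trans ((Apt.apt_conn hU hc hd d3 hw hw' (h1.mem hp) (h2.mem hq)).trans h2.symm)

end Crest.Agent.R175.P
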